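import Vale.Agent.P242.H71.Voc
import Vale.Agent.P242.H155.InvB

/-! P242, Part A (helper71): output of A-H234 in the frozen vocabulary, and the data of Part B. -/

set_option linter.all false

open MeasureTheory Filter Topology Set Metric
open scoped ENNReal NNReal InnerProductSpace

universe u

namespace Vale.Agent.P242.H71

open Vale.Agent.P233 Vale.Agent.P233.RA Vale.Agent.P242.H990

/-- symmetric bilinear, for functions of two vectors -/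
structure SymBil {n : ℕ} (F : E n → E n → ℝ) : Prop where
  symm : ∀ c d, F c d = F d c
  add : ∀ a b d, F (a + b) d = F a d + F b d
  smul : ∀ (r : ℝ) a d, F (r • a) d = r * F a d

/-- the form of a function of two vectors -/
noncomputable def toForm {n : ℕ} (F : E n → E n → ℝ) : E n →ₗ[ℝ] E n →ₗ[ℝ] ℝ :=
  open Classical in
  if h : SymBil F then
    LinearMap.mk₂ ℝ F h.add h.smul (fun a b c => by rw [h.symm, h.add, h.symm b, h.symm c])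
      (fun r a b => by rw [h.symm, h.smul, h.symm b]; rfl)
  else 0

theorem SymBil.toForm_apply {n : ℕ} {F : E n → E n → ℝ} (h : SymBil F) (c d : E n) :
    toForm F c d = F c d := by
  unfold toForm
  rw [dif_pos h]
  rfl

/-- Output of A-H234 on the ball `ball o (R' ρ)`, for all continuous times `t ≤ ρ²`. -/
structure HF {M : Type u} [MetricSpace M] [MeasurableSpace M] (m : Measure M) {n : ℕ} (K : ℝ) (o : M)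
    (p : ℝ → M → M → ℝ) (R' Q A₀ C₀ C₁ Λ B ε ρ : ℝ) (u : Fin n → M →ₘ[m] ℝ) : Prop where
  bG : ∀ x ∈ ball o (R' * ρ), ∀ t, 0 < t → t ≤ ρ ^ 2 → SymBil (Gm m p u t x)
  bN : ∀ x ∈ ball o (R' * ρ), ∀ t, 0 < t → t ≤ ρ ^ 2 → SymBil (Nt m K p u Q A₀ ρ (1 / 4) t x)
  pos : ∀ x ∈ ball o (R' * ρ), ∀ t, 0 < t → t ≤ ρ ^ 2 → ∀ c : E n, c ≠ 0 → 0 < Gm m p u t x c c
  nonneg : ∀ x ∈ ball o (R' * ρ), ∀ t, 0 < t → t ≤ ρ ^ 2 → ∀ c : E n,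
    0 ≤ Nt m K p u Q A₀ ρ (1 / 4) t x c c
  f2 : ∀ x ∈ ball o (R' * ρ), ∀ t, 0 < t → t ≤ ρ ^ 2 → ∀ c d : E n,
    |Gm m p u t x c d - Gm m p u (t / Λ ^ 2) x c d| ≤
      B * (√(Nt m K p u Q A₀ ρ (1 / 4) t x c c) * √(Nt m K p u Q A₀ ρ (1 / 4) t x d d))
  f3 : ∀ x ∈ ball o (R' * ρ), ∀ y ∈ ball o (R' * ρ), ∀ t, 0 < t → t ≤ ρ ^ 2 →
    dist x y ≤ C₀ * √t → ∀ c d : E n,
    |Gm m p u t x c d - Gm m p u t y c d| ≤ C₁ * (dist x y / √t) *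
      (√(Nt m K p u Q A₀ ρ (1 / 4) t x c c) * √(Nt m K p u Q A₀ ρ (1 / 4) t x d d))
  f4a : ∀ x ∈ ball o (R' * ρ), ∀ t, 0 < t → t ≤ ρ ^ 2 → ∀ c : E n,
    Nt m K p u Q A₀ ρ (1 / 4) t x c c ≤ ε * Gm m p u t x c c
  f4b : ∀ x ∈ ball o (R' * ρ), ∀ y ∈ ball o (R' * ρ), ∀ t, 0 < t → t ≤ ρ ^ 2 →
    dist x y ≤ C₀ * √t → ∀ c : E n,
    Nt m K p u Q A₀ ρ (1 / 4) t y c c ≤ C₁ ^ 2 * Nt m K p u Q A₀ ρ (1 / 4) t x c c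
  f4c : ∀ x ∈ ball o (R' * ρ), ∀ t, 0 < t → t ≤ ρ ^ 2 → ∀ c : E n,
    Nt m K p u Q A₀ ρ (1 / 4) t x c c ≤ √Λ * Nt m K p u Q A₀ ρ (1 / 4) (t / Λ ^ 2) x c c
  f7 : ∀ x ∈ ball o (R' * ρ), ∀ t t', 0 < t → t ≤ t' → t' ≤ ρ ^ 2 → ∀ c : E n,
    Gm m p u t x c c ≤ 2 * Gm m p u t' x c c

/-- A-H234: the forms of (h2), (h3), (h4), (h7). Order: `C₀ → Q₀ → Q → R₀ → R → C₁ → Λ → B → ε →
ε₁ → A₀ → η₁`. -/
def Blk_H234 : Prop := ForM.{u} fun M _ _ _ => ∀ (m : Measure M) (n : ℕ) (K : ℝ) (o : M) (A : ℝ)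
  (p : ℝ → M → M → ℝ), Env m n K o A p → ∀ C₀ : ℝ, 1 ≤ C₀ →
  ∃ Q₀, 1 ≤ Q₀ ∧ ∀ Q, Q₀ ≤ Q → ∃ R₀, 1 ≤ R₀ ∧ ∀ R, R₀ ≤ R → ∃ C₁, 1 ≤ C₁ ∧
    ∀ Λ, 16 ≤ Λ → ∃ B, 1 ≤ B ∧ ∀ ε, 0 < ε → ∃ ε₁, 0 < ε₁ ∧
    ∀ A₀, 0 < A₀ → A₀ ≤ ε₁ → ∃ η₁, 0 < η₁ ∧
    ∀ ε' η ρ, 0 < ε' → ε' ≤ ε₁ → 0 < η → η ≤ η₁ → ρ ≤ η₁ →
      ∀ (u : Fin n → M →ₘ[m] ℝ) (uu : M → E n),
      Cfg m n K o p R Q η ρ u uu → TT m K o p (R / 2) Q ε' ρ u →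
        HF m K o p (R / 4) Q A₀ C₀ C₁ Λ B ε ρ u

end Vale.Agent.P242.H71
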