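import Vale.Agent.P242.H448.Asm
import Vale.Agent.P242.H520.KerDefs
import Vale.Agent.P242.H990.Ph
import Vale.Agent.P233.RA.Defs
import Vale.Agent.P233.CD.Defs
import Vale.Agent.P233.H719.RegChDefs

/-! P242, Part A: frozen vocabulary and top-level blocks (helper71). Blueprint: notes 3439, 3517,
3562 (with the remarks R-a .. R-f of 3808 and (a)-(g) of 3717). -/

set_option linter.all false

open MeasureTheory Filter Topology Set Metric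
open scoped ENNReal NNReal InnerProductSpace

universe u

namespace Vale.Agent.P242.H71

open Vale.Agent.P233 Vale.Agent.P233.RA Vale.Agent.P242.H990

/-! ### pointwise objects: functionals of the heat kernel `p_s(x,·)` -/

section pointwise

variable {M : Type u} [MetricSpace M] [MeasurableSpace M]

/-- `P_s F (x)` -/
noncomputable def PP (m : Measure M) (p : ℝ → M → M → ℝ) (s : ℝ) (x : M) (F : M →ₘ[m] ℝ) : ℝ :=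
  I (ph m p s x * F)

/-- `gam_s(f,g)(x)`: the `Γ₂` form (plus `|K| Γ`) tested with `p_s(x,·)` -/
noncomputable def gam (m : Measure M) (K : ℝ) (p : ℝ → M → M → ℝ) (s : ℝ) (x : M)
    (f g : M →ₘ[m] ℝ) : ℝ :=
  (sob m).NN (-|K|) f g (ph m p s x)

/-- `QQ_s(f,g)(x) = gam_s(f,g)(x) - (1/n) P_s(Δf Δg)(x)` -/
noncomputable def QQ (m : Measure M) (n : ℕ) (K : ℝ) (p : ℝ → M → M → ℝ) (s : ℝ) (x : M)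
    (f g : M →ₘ[m] ℝ) : ℝ :=
  gam m K p s x f g - (n : ℝ)⁻¹ * PP m p s x ((sob m).lap f * (sob m).lap g)

/-- `ν_y φ = ∫ (n + K₁/2 + K₁ w_y) φ + ∫ Γ(w_y, φ)`, `w_y = min(g_y,1/2) - 1/2`, `K₁ = |K| + 1`:
the measure `n + K₁ min(g_y,1/2) - Δ w_y`, nonnegative by Laplacian comparison (all of `X`). -/
noncomputable def nuF (m : Measure M) (n : ℕ) (K : ℝ) (y : M) (φ : M →ₘ[m] ℝ) : ℝ :=
  ((n : ℝ) + (|K| + 1) / 2) * I φ + (|K| + 1) * I (φ * cl m (ww (1 / 2) y))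
    + I ((sob m).Γ (cl m (ww (1 / 2) y)) φ)

/-- `ν_{y,s}(x) = n + K₁ (P_s w_y (x) + 1/2) - Δ P_s w_y (x)` -/
noncomputable def nu (m : Measure M) (n : ℕ) (K : ℝ) (p : ℝ → M → M → ℝ) (y : M) (s : ℝ) (x : M) :
    ℝ := nuF m n K y (ph m p s x)

/-- `b_{y,t} = P_t w_y` -/
noncomputable def bb (m : Measure M) (y : M) (t : ℝ) : M →ₘ[m] ℝ :=
  (sob m).P t (cl m (ww (1 / 2) y))

/-- `b'_{y,t}(z) = P_t w_y (z) + 1/2 - n t`, pointwise -/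
noncomputable def bp (m : Measure M) (n : ℕ) (p : ℝ → M → M → ℝ) (y : M) (t : ℝ) (z : M) : ℝ :=
  PP m p t z (cl m (ww (1 / 2) y)) + 1 / 2 - n * t

/-- `u_c = ∑ c_i u_i` -/
noncomputable def uc {m : Measure M} {n : ℕ} (u : Fin n → M →ₘ[m] ℝ) (c : E n) : M →ₘ[m] ℝ :=
  ∑ i, c i • u i

/-- `G_s(x)(c,c') = P_s Γ(u_c,u_c') (x)` -/
noncomputable def Gm (m : Measure M) {n : ℕ} (p : ℝ → M → M → ℝ) (u : Fin n → M →ₘ[m] ℝ) (s : ℝ)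
    (x : M) (c c' : E n) : ℝ :=
  PP m p s x ((sob m).Γ (uc u c) (uc u c'))

/-- `gam_s(x)(c,c')` -/
noncomputable def gm (m : Measure M) {n : ℕ} (K : ℝ) (p : ℝ → M → M → ℝ) (u : Fin n → M →ₘ[m] ℝ)
    (s : ℝ) (x : M) (c c' : E n) : ℝ :=
  gam m K p s x (uc u c) (uc u c')

/-- `N^e_t(x)(c,c') = ∫_t^{Qρ²} (t/s)^e gam_s(x)(c,c') ds + A₀ (t/ρ²)^e ⟨c,c'⟩`; `e = 1/4` for `N`,
`e = 3/8` for `Na`. The background constant `A₀` is the same as in `Dt`; it is chosen BEFORE the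
closeness parameter `η` of the configuration (`η ≪ A₀`). -/
noncomputable def Nt (m : Measure M) {n : ℕ} (K : ℝ) (p : ℝ → M → M → ℝ) (u : Fin n → M →ₘ[m] ℝ)
    (Q A₀ ρ e t : ℝ) (x : M) (c c' : E n) : ℝ :=
  (∫ s in t..Q * ρ ^ 2, (t / s) ^ e * gm m K p u s x c c') + A₀ * (t / ρ ^ 2) ^ e * ⟪c, c'⟫_ℝ

/-- `D_t(y) = ∫_t^{Qρ²} (t/s)^{1/8} ν_{y,s}(y) ds/s + A₀ (t/ρ²)^{1/8}`; `D_k = D_{t_k}` -/
noncomputable def Dt (m : Measure M) (n : ℕ) (K : ℝ) (p : ℝ → M → M → ℝ) (Q A₀ ρ t : ℝ) (y : M) :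
    ℝ :=
  (∫ s in t..Q * ρ ^ 2, (t / s) ^ (1 / 8 : ℝ) * (nu m n K p y s y / s)) + A₀ * (t / ρ ^ 2) ^ (1 / 8 : ℝ)

end pointwise

/-! ### environment and configurations -/

section env

variable {M : Type u} [MetricSpace M] [MeasurableSpace M] [BorelSpace M]

/-- Noncollapsed `RCD(K,n)`; the same fields as `P233.CD.Hyp` of `CD/If3b.lean`, copied here so that
this file does not import the whole of P233 (`⟨h.1, h.2, h.3, h.4⟩` converts). -/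
structure HypL (m : Measure M) (n : ℕ) (K : ℝ) : Prop where
  two_le : 2 ≤ n
  haus : m = μH[(n : ℝ)]
  full : m.IsOpenPosMeasure
  rcd : P233.CD.IsRCD m K n

/-- A noncollapsed `RCD(K,n)` space with its heat kernel. -/
structure Env (m : Measure M) (n : ℕ) (K : ℝ) (o : M) (A : ℝ) (p : ℝ → M → M → ℝ) : Prop where
  hyp : HypL m n K
  ker : H520.Ker0 m p
  kb : H990.KB n o A p

/-- The almost harmonic maps near `o` at scale `ρ` (output of A-MAPS), valid on `ball o (R ρ)` for the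
times `(0, Q ρ²]`. -/
structure Cfg (m : Measure M) (n : ℕ) (K : ℝ) (o : M) (p : ℝ → M → M → ℝ) (R Q η ρ : ℝ)
    (u : Fin n → M →ₘ[m] ℝ) (uu : M → E n) : Prop where
  ρ_pos : 0 < ρ
  Rρ : R * ρ ≤ 1
  Qρ : Q * ρ ^ 2 ≤ 1 / 2
  Kρ : |K| * ρ ^ 2 ≤ η
  test : ∀ i, u i ∈ (sob m).TestI
  cont : Continuous uu
  rep : ∀ i, ∀ᵐ x ∂m, u i x = uu x i
  grad : ∀ i, ∀ᵐ x ∂m, (sob m).Γ (u i) (u i) x ≤ 4
  lap1 : ∀ x ∈ ball o (R * ρ), ∀ s, 0 < s → s ≤ Q * ρ ^ 2 → ∀ i,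
    PP m p s x ((sob m).lap (u i) ^ 2) ≤ (η / ρ) ^ 2
  lap2 : ∀ x ∈ ball o (R * ρ), ∀ s, 0 < s → s ≤ Q * ρ ^ 2 → ∀ i,
    PP m p s x ((sob m).Γ ((sob m).lap (u i)) ((sob m).lap (u i))) ≤ (η / ρ ^ 2) ^ 2
  gram : ∀ x ∈ ball o (R * ρ), ∀ s, ρ ^ 2 / Q ≤ s → s ≤ Q * ρ ^ 2 → ∀ c c' : E n,
    |Gm m p u s x c c' - ⟪c, c'⟫_ℝ| ≤ η * ‖c‖ * ‖c'‖
  gram1 : ∀ x ∈ ball o (R * ρ), ∀ s, ρ ^ 2 / Q ≤ s → s ≤ Q * ρ ^ 2 → ∀ c c' : E n,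
    PP m p s x |(sob m).Γ (uc u c) (uc u c') - ⟪c, c'⟫_ℝ • (1 : M →ₘ[m] ℝ)| ≤ η * ‖c‖ * ‖c'‖
  gam : ∀ x ∈ ball o (R * ρ), ∀ s, ρ ^ 2 / Q ≤ s → s ≤ Q * ρ ^ 2 → ∀ c : E n,
    s * gm m K p u s x c c ≤ η * ‖c‖ ^ 2
  iso : ∀ x ∈ ball o (R * ρ), ∀ y ∈ ball o (R * ρ), |dist (uu x) (uu y) - dist x y| ≤ η * ρ
  dens : ∀ x ∈ ball o (R * ρ / 2), ∀ v : E n, ‖v‖ ≤ R * ρ / 4 →
    ∃ y, dist x y ≤ 2 * ‖v‖ + ρ ∧ ‖uu y - uu x - v‖ ≤ η * ρ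

/-- smallness of the volume drop: `∫_a^{Qρ²} ν_{x,s}(x) ds/s ≤ δ` on `ball o (R ρ)` -/
def DropS (m : Measure M) (n : ℕ) (K : ℝ) (o : M) (p : ℝ → M → M → ℝ) (R Q δ ρ : ℝ) : Prop :=
  ∀ x ∈ ball o (R * ρ), ∀ a, 0 < a → a ≤ Q * ρ ^ 2 → ∫ s in a..Q * ρ ^ 2, nu m n K p x s x / s ≤ δ

/-- (T): the transformation estimate on `ball o (R' ρ)` at all scales -/
def TT (m : Measure M) {n : ℕ} (K : ℝ) (o : M) (p : ℝ → M → M → ℝ) (R' Q ε ρ : ℝ)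
    (u : Fin n → M →ₘ[m] ℝ) : Prop :=
  ∀ x ∈ ball o (R' * ρ), ∀ s, 0 < s → s ≤ Q * ρ ^ 2 → ∀ c : E n,
    s * gm m K p u s x c c ≤ ε * Gm m p u s x c c

/-- near isometry at scale `√t` around every point of `ball o (R' ρ)`; `G` acts on covectors, so
`|u(x)-u(y)|²_{g}` is `sup_c (2 ⟨c,w⟩ - G(c,c))`, attained at `G c = w`. -/
def NearIso (m : Measure M) {n : ℕ} (o : M) (p : ℝ → M → M → ℝ) (R' C₀ ε ρ : ℝ)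
    (u : Fin n → M →ₘ[m] ℝ) (uu : M → E n) : Prop :=
  ∀ x ∈ ball o (R' * ρ), ∀ t, 0 < t → t ≤ ρ ^ 2 → ∀ y, dist x y ≤ C₀ * √t → ∀ c : E n,
    (∀ c' : E n, Gm m p u t x c c' = ⟪c', uu x - uu y⟫_ℝ) →
    |√(⟪c, uu x - uu y⟫_ℝ) - dist x y| ≤ ε * √t ∧ √(⟪c, uu x - uu y⟫_ℝ) ≤ 2 * dist x y

/-- density of the image at scale `√t` around every point of `ball o (R' ρ)` -/
def Dens (m : Measure M) {n : ℕ} (o : M) (p : ℝ → M → M → ℝ) (R' C₀ ε ρ : ℝ)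
    (u : Fin n → M →ₘ[m] ℝ) (uu : M → E n) : Prop :=
  ∀ x ∈ ball o (R' * ρ), ∀ t, 0 < t → t ≤ ρ ^ 2 → ∀ v : E n, ∀ c : E n,
    (∀ c' : E n, Gm m p u t x c c' = ⟪c', v⟫_ℝ) → ⟪c, v⟫_ℝ ≤ C₀ ^ 2 * t →
    ∃ y, dist x y ≤ (C₀ + 1) * √t ∧ ∀ c₁ : E n,
      (∀ c' : E n, Gm m p u t x c₁ c' = ⟪c', uu y - uu x - v⟫_ℝ) →
      ⟪c₁, uu y - uu x - v⟫_ℝ ≤ ε ^ 2 * t

/-- (h5) at the scale `√t` -/
def H5 (m : Measure M) {n : ℕ} (K : ℝ) (o : M) (p : ℝ → M → M → ℝ) (R' Q A₀ C₀ B ρ : ℝ)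
    (u : Fin n → M →ₘ[m] ℝ) (uu : M → E n) : Prop :=
  ∀ x ∈ ball o (R' * ρ), ∀ y ∈ ball o (R' * ρ), ∀ t, 0 < t → t ≤ ρ ^ 2 → dist x y ≤ C₀ * √t →
    ∀ c : E n, (∀ c' : E n, Gm m p u t x c c' = ⟪c', uu x - uu y⟫_ℝ) →
    Nt m K p u Q A₀ ρ (1 / 4) t x c c ≤
      B * t * (Dt m n K p Q A₀ ρ t x + Dt m n K p Q A₀ ρ t y)

end env

/-- (h6): the drop function at the scales `t_k = (ρ Λ^{-k})²` -/
def H6 {M : Type u} [MetricSpace M] [MeasurableSpace M] (m : Measure M) (n : ℕ) (K : ℝ) (o : M) (p : ℝ → M → M → ℝ) (R' Q A₀ Λ δ' ρ : ℝ) : Prop :=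
  ∀ x ∈ ball o (R' * ρ), (∀ k : ℕ, A₀ * Λ⁻¹ ^ k ≤ Dt m n K p Q A₀ ρ (rr ρ Λ k ^ 2) x) ∧
    (∀ k : ℕ, Dt m n K p Q A₀ ρ (rr ρ Λ k ^ 2) x
      ≤ √Λ * Dt m n K p Q A₀ ρ (rr ρ Λ (k + 1) ^ 2) x) ∧
    ∀ k : ℕ, ∑ j ∈ Finset.range k, Dt m n K p Q A₀ ρ (rr ρ Λ j ^ 2) x ≤ δ'

/-! ### top-level blocks of Part A -/

/-- Binder: complete separable spaces. -/
def ForM (P : ∀ (M : Type u) [MetricSpace M] [MeasurableSpace M] [BorelSpace M], Prop) : Prop :=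
  ∀ (M : Type u) [MetricSpace M] [CompleteSpace M] [SecondCountableTopology M]
    [MeasurableSpace M] [BorelSpace M], P M

/-- F (all foundation packages): the heat kernel with Gaussian bounds exists. -/
def Blk_F : Prop := ForM.{u} fun M _ _ _ => ∀ (m : Measure M) (n : ℕ) (K : ℝ) (o : M),
  HypL m n K → ∃ (A : ℝ) (p : ℝ → M → M → ℝ), Env m n K o A p

/-- A-MAPS -/
def Blk_Maps : Prop := ForM.{u} fun M _ _ _ => ∀ (m : Measure M) (n : ℕ) (K : ℝ) (o : M) (A : ℝ)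
  (p : ℝ → M → M → ℝ), Env m n K o A p → H719.IsRegular n o →
  ∀ R Q η ρ₁ : ℝ, 1 ≤ R → 1 ≤ Q → 0 < η → 0 < ρ₁ → ∃ ρ, ρ ≤ ρ₁ ∧
    ∃ (u : Fin n → M →ₘ[m] ℝ) (uu : M → E n), Cfg m n K o p R Q η ρ u uu

/-- VOL + A1-DROP -/
def Blk_Drop : Prop := ForM.{u} fun M _ _ _ => ∀ (m : Measure M) (n : ℕ) (K : ℝ) (o : M) (A : ℝ)
  (p : ℝ → M → M → ℝ), Env m n K o A p → H719.IsRegular n o →
  ∀ R Q δ : ℝ, 1 ≤ R → 1 ≤ Q → 0 < δ → ∃ ρ₁, 0 < ρ₁ ∧ ∀ ρ, 0 < ρ → ρ ≤ ρ₁ →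
    DropS m n K o p R Q δ ρ

/-- A1-DROP (second half): (h6) from `DropS` -/
def Blk_H6 : Prop := ForM.{u} fun M _ _ _ => ∀ (m : Measure M) (n : ℕ) (K : ℝ) (o : M) (A : ℝ)
  (p : ℝ → M → M → ℝ), Env m n K o A p → ∀ R Q A₀ Λ δ ρ : ℝ, 1 ≤ R → 1 ≤ Q → 0 < A₀ → 16 ≤ Λ →
    0 < ρ → Q * ρ ^ 2 ≤ 1 / 2 → DropS m n K o p R Q δ ρ →
    H6 m n K o p R Q A₀ Λ (2 * δ + 4 * A₀) ρ

/-- A-T7: (T). -/
def Blk_T : Prop := ForM.{u} fun M _ _ _ => ∀ (m : Measure M) (n : ℕ) (K : ℝ) (o : M) (A : ℝ)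
  (p : ℝ → M → M → ℝ), Env m n K o A p →
  ∃ Q₀, 1 ≤ Q₀ ∧ ∀ Q, Q₀ ≤ Q → ∃ R₀, 1 ≤ R₀ ∧ ∀ R, R₀ ≤ R → ∀ ε, 0 < ε → ∃ η₁, 0 < η₁ ∧
    ∀ η δ ρ, 0 < η → η ≤ η₁ → δ ≤ η₁ → ρ ≤ η₁ → ∀ (u : Fin n → M →ₘ[m] ℝ) (uu : M → E n),
      Cfg m n K o p R Q η ρ u uu → DropS m n K o p R Q δ ρ → TT m K o p (R / 2) Q ε ρ u

/-- A4-PRE + A-GH: near isometry and density from (T). -/
def Blk_Near : Prop := ForM.{u} fun M _ _ _ => ∀ (m : Measure M) (n : ℕ) (K : ℝ) (o : M) (A : ℝ)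
  (p : ℝ → M → M → ℝ), Env m n K o A p → ∀ C₀ : ℝ, 1 ≤ C₀ →
  ∃ Q₀, 1 ≤ Q₀ ∧ ∀ Q, Q₀ ≤ Q → ∃ R₀, 1 ≤ R₀ ∧ ∀ R, R₀ ≤ R → ∀ ε, 0 < ε → ∃ ε₁, 0 < ε₁ ∧
    ∀ ε' η ρ, 0 < ε' → ε' ≤ ε₁ → 0 < η → η ≤ ε₁ → ρ ≤ ε₁ →
      ∀ (u : Fin n → M →ₘ[m] ℝ) (uu : M → E n),
      Cfg m n K o p R Q η ρ u uu → TT m K o p (R / 2) Q ε' ρ u →
        NearIso m o p (R / 4) C₀ ε ρ u uu ∧ Dens m o p (R / 4) C₀ ε ρ u uu

/-- A-E1, A-DL, A-T7 (R1, R2), A-RAD, A-E4, A-E6P, A-H5: (h5). `B` does not depend on `A₀`. -/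
def Blk_H5 : Prop := ForM.{u} fun M _ _ _ => ∀ (m : Measure M) (n : ℕ) (K : ℝ) (o : M) (A : ℝ)
  (p : ℝ → M → M → ℝ), Env m n K o A p → ∀ C₀ : ℝ, 1 ≤ C₀ →
  ∃ Q₀, 1 ≤ Q₀ ∧ ∀ Q, Q₀ ≤ Q → ∃ R₀, 1 ≤ R₀ ∧ ∀ R, R₀ ≤ R → ∃ B, 1 ≤ B ∧ ∃ ε₁, 0 < ε₁ ∧
    ∀ A₀, 0 < A₀ → A₀ ≤ ε₁ → ∃ η₁, 0 < η₁ ∧
    ∀ ε' η δ ρ, 0 < ε' → ε' ≤ ε₁ → 0 < η → η ≤ η₁ → δ ≤ η₁ → ρ ≤ η₁ →
      ∀ (u : Fin n → M →ₘ[m] ℝ) (uu : M → E n),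
      Cfg m n K o p R Q η ρ u uu → DropS m n K o p R Q δ ρ → TT m K o p (R / 2) Q ε' ρ u →
        H5 m K o p (R / 4) Q A₀ C₀ B ρ u uu

/-- **Part A.** -/
def PartA : Prop := ∀ (X : Type u) [MetricSpace X] [CompleteSpace X] [SecondCountableTopology X]
  [MeasurableSpace X] [BorelSpace X] (n : ℕ) (K : ℝ), HypL (μH[(n : ℝ)] : Measure X) n K →
  ∀ o : X, H719.IsRegular n o → ∀ C₀ : ℝ, 2 ≤ C₀ → H448.PartAAt n C₀ o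

end Vale.Agent.P242.H71
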