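import Vale.Agent.P242.H71.HFDef

/-! P242 (helper71): Part A from the blocks. -/

set_option linter.all false

open MeasureTheory Filter Topology Set Metric
open scoped ENNReal NNReal InnerProductSpace

universe u

namespace Vale.Agent.P242.H71

open Vale.Agent.P233 Vale.Agent.P233.RA Vale.Agent.P242.H990 H155

section data

variable {M : Type u} [MetricSpace M] [MeasurableSpace M] (m : Measure M) {n : ℕ} (K : ℝ) (o : M)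
  (p : ℝ → M → M → ℝ) (Q A₀ Λ ρ : ℝ) (u : Fin n → M →ₘ[m] ℝ) (uu : M → E n)

/-- the forms on `c`-space on `closedBall o (ρ/4)` -/
noncomputable def cd : CD n (closedBall o (ρ / 4)) where
  G k x := toForm (Gm m p u (rr ρ Λ k ^ 2) x)
  μ k x := fsem (toForm (Nt m K p u Q A₀ ρ (1 / 4) (rr ρ Λ k ^ 2) x))

/-- the data of Part B -/
noncomputable def pb : PB n (closedBall o (ρ / 4)) :=
  toPB (cd m K o p Q A₀ Λ ρ u) (fun x => uu x) fun k x => Dt m n K p Q A₀ ρ (rr ρ Λ k ^ 2) x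

end data

theorem rr_pos {ρ Λ : ℝ} (hρ : 0 < ρ) (hΛ : 0 < Λ) (k : ℕ) : 0 < rr ρ Λ k := by
  unfold rr; positivity

theorem rr_le {ρ Λ : ℝ} (hρ : 0 < ρ) (hΛ : 1 ≤ Λ) (k : ℕ) : rr ρ Λ k ≤ ρ := by
  unfold rr
  exact div_le_self hρ.le (one_le_pow₀ hΛ)

theorem rr_anti {ρ Λ : ℝ} (hρ : 0 < ρ) (hΛ : 1 ≤ Λ) {j k : ℕ} (h : j ≤ k) :
    rr ρ Λ k ≤ rr ρ Λ j := by
  unfold rr
  have : (0 : ℝ) < Λ ^ j := by positivity
  gcongr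

theorem rr_succ {ρ Λ : ℝ} (k : ℕ) : rr ρ Λ (k + 1) ^ 2 = rr ρ Λ k ^ 2 / Λ ^ 2 := by
  unfold rr
  rw [pow_succ Λ k, ← div_div, div_pow _ Λ]

section main

variable {M : Type u} [MetricSpace M] [MeasurableSpace M] {m : Measure M} {n : ℕ} {K : ℝ} {o : M}
  {p : ℝ → M → M → ℝ} {R' Q A₀ C₀ C₁ Λ B ε ρ : ℝ} {u : Fin n → M →ₘ[m] ℝ} {uu : M → E n}

/-- (F2) - (F7) at the discrete scales -/
theorem chyp (hρ : 0 < ρ) (hΛ : 16 ≤ Λ) (hR : 1 ≤ R') (hC₁ : 0 ≤ C₁)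
    (h : HF m K o p R' Q A₀ C₀ C₁ Λ B ε ρ u) :
    CHyp (cd m K o p Q A₀ Λ ρ u) ρ C₀ C₁ Λ (√√Λ) B ε := by
  have hΛ0 : 0 < Λ := by linarith
  have hΛ1 : 1 ≤ Λ := by linarith
  have hx : ∀ x : closedBall o (ρ / 4), (x : M) ∈ ball o (R' * ρ) := fun x =>
    mem_ball.2 (lt_of_le_of_lt x.2 (by nlinarith))
  have ht0 : ∀ k, 0 < rr ρ Λ k ^ 2 := fun k => pow_pos (rr_pos hρ hΛ0 k) 2
  have ht1 : ∀ k, rr ρ Λ k ^ 2 ≤ ρ ^ 2 := fun k =>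
    pow_le_pow_left₀ (rr_pos hρ hΛ0 k).le (rr_le hρ hΛ1 k) 2
  have hsq : ∀ k, √(rr ρ Λ k ^ 2) = rr ρ Λ k := fun k => Real.sqrt_sq (rr_pos hρ hΛ0 k).le
  have eG : ∀ k (x : closedBall o (ρ / 4)) c d,
      (cd m K o p Q A₀ Λ ρ u).G k x c d = Gm m p u (rr ρ Λ k ^ 2) x c d := fun k x c d =>
    (h.bG x (hx x) _ (ht0 k) (ht1 k)).toForm_apply c d
  have psd : ∀ k (x : closedBall o (ρ / 4)),
      PSD (toForm (Nt m K p u Q A₀ ρ (1 / 4) (rr ρ Λ k ^ 2) x)) := fun k x =>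
    ⟨fun c d => by
        rw [(h.bN x (hx x) _ (ht0 k) (ht1 k)).toForm_apply,
          (h.bN x (hx x) _ (ht0 k) (ht1 k)).toForm_apply]
        exact (h.bN x (hx x) _ (ht0 k) (ht1 k)).symm c d,
      fun c => by
        rw [(h.bN x (hx x) _ (ht0 k) (ht1 k)).toForm_apply]
        exact h.nonneg x (hx x) _ (ht0 k) (ht1 k) c⟩
  have eN : ∀ k (x : closedBall o (ρ / 4)) c,
      (cd m K o p Q A₀ Λ ρ u).μ k x c = √(Nt m K p u Q A₀ ρ (1 / 4) (rr ρ Λ k ^ 2) x c c) :=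
    fun k x c => by
      change fsem _ c = _
      rw [(psd k x).fsem_apply, (h.bN x (hx x) _ (ht0 k) (ht1 k)).toForm_apply]
  have hN0 : ∀ k (x : closedBall o (ρ / 4)) c,
      0 ≤ Nt m K p u Q A₀ ρ (1 / 4) (rr ρ Λ k ^ 2) x c c := fun k x c =>
    h.nonneg x (hx x) _ (ht0 k) (ht1 k) c
  refine ⟨fun k x => ⟨fun c d => ?_, fun c hc => ?_⟩, fun k x c d => ?_, fun k x y hxy c d => ?_,
    fun k x c => ?_, fun k x y hxy c => ?_, fun k x c => ?_, fun j k hjk x c => ?_⟩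
  · rw [eG, eG]; exact (h.bG x (hx x) _ (ht0 k) (ht1 k)).symm c d
  · rw [eG]; exact h.pos x (hx x) _ (ht0 k) (ht1 k) c hc
  · rw [eG, eG, eN, eN, rr_succ]
    exact h.f2 x (hx x) _ (ht0 k) (ht1 k) c d
  · rw [eG, eG, eN, eN]
    have := h.f3 x (hx x) y (hx y) _ (ht0 k) (ht1 k) (by rw [hsq]; exact hxy) c d
    rw [hsq] at this
    exact this
  · rw [eG, eN, Real.sq_sqrt (hN0 k x c)]
    exact h.f4a x (hx x) _ (ht0 k) (ht1 k) c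
  · rw [eN, eN]
    have := h.f4b x (hx x) y (hx y) _ (ht0 k) (ht1 k) (by rw [hsq]; exact hxy) c
    calc √(Nt m K p u Q A₀ ρ (1 / 4) (rr ρ Λ k ^ 2) y c c)
        ≤ √(C₁ ^ 2 * Nt m K p u Q A₀ ρ (1 / 4) (rr ρ Λ k ^ 2) x c c) := Real.sqrt_le_sqrt this
      _ = _ := by rw [Real.sqrt_mul (sq_nonneg _), Real.sqrt_sq hC₁]
  · rw [eN, eN, rr_succ]
    have := h.f4c x (hx x) _ (ht0 k) (ht1 k) c
    calc √(Nt m K p u Q A₀ ρ (1 / 4) (rr ρ Λ k ^ 2) x c c)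
        ≤ √(√Λ * Nt m K p u Q A₀ ρ (1 / 4) (rr ρ Λ k ^ 2 / Λ ^ 2) x c c) := Real.sqrt_le_sqrt this
      _ = _ := by rw [Real.sqrt_mul (Real.sqrt_nonneg _)]
  · rw [eG, eG]
    exact h.f7 x (hx x) _ _ (ht0 k)
      (pow_le_pow_left₀ (rr_pos hρ hΛ0 k).le (rr_anti hρ hΛ1 hjk) 2) (ht1 j) c

/-- the inverse of the Gram form -/
noncomputable def iv (m : Measure M) {n : ℕ} (p : ℝ → M → M → ℝ) (u : Fin n → M →ₘ[m] ℝ) (t : ℝ)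
    (x : M) (v : E n) : E n := inv (toForm (Gm m p u t x)) v

theorem iv_spec (h : HF m K o p R' Q A₀ C₀ C₁ Λ B ε ρ u) {x : M} (hx : x ∈ ball o (R' * ρ)) {t : ℝ}
    (ht : 0 < t) (ht1 : t ≤ ρ ^ 2) (v c' : E n) :
    Gm m p u t x (iv m p u t x v) c' = ⟪c', v⟫_ℝ := by
  have hb := h.bG x hx t ht ht1
  have hpd : PD (toForm (Gm m p u t x)) := ⟨fun c d => by
      rw [hb.toForm_apply, hb.toForm_apply]; exact hb.symm c d, fun c hc => by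
      rw [hb.toForm_apply]; exact h.pos x hx t ht ht1 c hc⟩
  rw [← hb.toForm_apply, iv, hpd.G_inv, real_inner_comm]

theorem nrm_eq (k : ℕ) (x : closedBall o (ρ / 4)) (v : E n) :
    (pb m K o p Q A₀ Λ ρ u uu).nrm k x v = √(⟪iv m p u (rr ρ Λ k ^ 2) x v, v⟫_ℝ) := by
  unfold PB.nrm pb
  rw [CHyp.toPB_g, dual_apply]
  rfl

theorem N_eq (h : HF m K o p R' Q A₀ C₀ C₁ Λ B ε ρ u) (hρ : 0 < ρ) (hΛ : 16 ≤ Λ) (hR : 1 ≤ R')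
    (k : ℕ) (x : closedBall o (ρ / 4)) (v : E n) :
    (pb m K o p Q A₀ Λ ρ u uu).N k x v ^ 2 = Nt m K p u Q A₀ ρ (1 / 4) (rr ρ Λ k ^ 2) x
      (iv m p u (rr ρ Λ k ^ 2) x v) (iv m p u (rr ρ Λ k ^ 2) x v) := by
  have hΛ0 : 0 < Λ := by linarith
  have hx : (x : M) ∈ ball o (R' * ρ) := mem_ball.2 (lt_of_le_of_lt x.2 (by nlinarith))
  have ht0 : 0 < rr ρ Λ k ^ 2 := pow_pos (rr_pos hρ hΛ0 k) 2
  have ht1 : rr ρ Λ k ^ 2 ≤ ρ ^ 2 :=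
    pow_le_pow_left₀ (rr_pos hρ hΛ0 k).le (rr_le hρ (by linarith) k) 2
  have hb := h.bN x hx _ ht0 ht1
  have psd : PSD (toForm (Nt m K p u Q A₀ ρ (1 / 4) (rr ρ Λ k ^ 2) x)) :=
    ⟨fun c d => by rw [hb.toForm_apply, hb.toForm_apply]; exact hb.symm c d,
      fun c => by rw [hb.toForm_apply]; exact h.nonneg x hx _ ht0 ht1 c⟩
  change (fsem (toForm (Nt m K p u Q A₀ ρ (1 / 4) (rr ρ Λ k ^ 2) x))
    (iv m p u (rr ρ Λ k ^ 2) x v)) ^ 2 = _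
  rw [psd.fsem_sq, hb.toForm_apply]

theorem pb_hyp {B' Bh δ δ' : ℝ} (hρ : 0 < ρ) (hΛ : 16 ≤ Λ) (hR : 1 ≤ R') (hC₀ : 0 ≤ C₀) (hC₁ : 1 ≤ C₁)
    (hB : 1 ≤ B) (hε : 0 < ε) (hA₀ : 0 < A₀)
    (h : HF m K o p R' Q A₀ C₀ C₁ Λ B ε ρ u) (s1 : 2 * (B * ε) ≤ 1) (s2 : 2 * (C₁ * C₀ * ε) ≤ 1)
    (s3 : 2 * (B * √√Λ ^ 2 * ε) ≤ 1)
    (hn : NearIso m o p R' C₀ ε ρ u uu) (h5 : H5 m K o p R' Q A₀ C₀ Bh ρ u uu)
    (h6 : H6 m n K o p R' Q A₀ Λ δ' ρ) (hδ : δ' ≤ δ) (hB1 : 2 * B ≤ B') (hB2 : Bh ≤ B')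
    (hB0 : 0 ≤ Bh) :
    (pb m K o p Q A₀ Λ ρ u uu).Hyp ρ C₀ (2 * C₁) Λ (2 * √√Λ) B' ε δ := by
  have hΛ0 : 0 < Λ := by linarith
  have hΛ1 : 1 ≤ Λ := by linarith
  have H := chyp hρ hΛ hR (by linarith) h
  have hx : ∀ x : closedBall o (ρ / 4), (x : M) ∈ ball o (R' * ρ) := fun x =>
    mem_ball.2 (lt_of_le_of_lt x.2 (by nlinarith))
  have ht0 : ∀ k, 0 < rr ρ Λ k ^ 2 := fun k => pow_pos (rr_pos hρ hΛ0 k) 2
  have ht1 : ∀ k, rr ρ Λ k ^ 2 ≤ ρ ^ 2 := fun k =>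
    pow_le_pow_left₀ (rr_pos hρ hΛ0 k).le (rr_le hρ hΛ1 k) 2
  have hsq : ∀ k, √(rr ρ Λ k ^ 2) = rr ρ Λ k := fun k => Real.sqrt_sq (rr_pos hρ hΛ0 k).le
  have hD0 : ∀ k (x : closedBall o (ρ / 4)), 0 ≤ (pb m K o p Q A₀ Λ ρ u uu).D k x := fun k x =>
    le_trans (by positivity) ((h6 x (hx x)).1 k)
  refine
    { r₀_pos := hρ
      diam := fun x y => ?_
      symm := fun k x v w => H.symm _ _ k x v w
      pos := fun k x v hv => H.pos _ _ k x v hv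
      h1 := fun k x y hxy => ?_
      h1' := fun k x y hxy => ?_
      h2 := fun k x v w => ?_
      h3 := fun k x y hxy v w =>
        H.h3 _ _ hρ hΛ0 (by linarith) hε.le s2 k x y hxy v w
      h4a := fun k x v => H.h4a _ _ k x v
      h4b := fun k x y hxy v => H.h4b _ _ hρ hΛ0 (by linarith) hε.le s2 k x y hxy v
      h4c := fun k x v => H.h4c _ _ (by linarith) (Real.sqrt_nonneg _) hε.le s3 k x v
      h5 := fun k x y hxy => ?_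
      h6a := fun k => ⟨A₀ * Λ⁻¹ ^ k, by positivity, fun x => (h6 x (hx x)).1 k⟩
      h6b := fun k x => ?_
      h6c := fun k x => ((h6 x (hx x)).2.2 k).trans hδ
      h7 := fun j k hjk x v => H.h7 _ _ j k hjk x v }
  · have h1 : dist (x : M) y ≤ dist (x : M) o + dist (y : M) o := dist_triangle_right _ _ _
    have h2 : dist (x : M) o ≤ ρ / 4 := x.2
    have h3 : dist (y : M) o ≤ ρ / 4 := y.2
    have h4 : dist x y = dist (x : M) y := rfl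
    linarith
  · have := (hn x (hx x) _ (ht0 k) (ht1 k) y (by rw [hsq]; exact hxy)
      (iv m p u (rr ρ Λ k ^ 2) x (uu x - uu y)) fun c' => iv_spec h (hx x) (ht0 k) (ht1 k) _ c').1
    rw [hsq] at this
    rw [nrm_eq]
    exact this
  · have := (hn x (hx x) _ (ht0 k) (ht1 k) y (by rw [hsq]; exact hxy)
      (iv m p u (rr ρ Λ k ^ 2) x (uu x - uu y)) fun c' => iv_spec h (hx x) (ht0 k) (ht1 k) _ c').2
    rw [nrm_eq]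
    exact this
  · refine (H.h2 _ _ (by linarith) hε.le s1 k x v w).trans ?_
    exact mul_le_mul_of_nonneg_right hB1 (mul_nonneg (apply_nonneg _ _) (apply_nonneg _ _))
  · have := h5 x (hx x) y (hx y) _ (ht0 k) (ht1 k) (by rw [hsq]; exact hxy)
      (iv m p u (rr ρ Λ k ^ 2) x (uu x - uu y)) fun c' => iv_spec h (hx x) (ht0 k) (ht1 k) _ c'
    rw [← N_eq (uu := uu) h hρ hΛ hR k x] at this
    refine this.trans ?_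
    have h1 := hD0 k x
    have h2 := hD0 k y
    exact mul_le_mul_of_nonneg_right (mul_le_mul_of_nonneg_right hB2 (ht0 k).le) (add_nonneg h1 h2)
  · have h1 := (h6 x (hx x)).2.1 k
    have h2 := hD0 (k + 1) x
    have e : √√Λ ^ 2 = √Λ := Real.sq_sqrt (Real.sqrt_nonneg _)
    refine (show (pb m K o p Q A₀ Λ ρ u uu).D k x ≤ √Λ * (pb m K o p Q A₀ Λ ρ u uu).D (k + 1) x
      from h1).trans ?_
    rw [mul_pow, e]
    have := Real.sqrt_nonneg Λ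
    nlinarith [mul_nonneg this h2]

/-- density at the discrete scales -/
theorem pb_dense (hρ : 0 < ρ) (hΛ : 16 ≤ Λ) (hR : 1 ≤ R') (hC₀ : 2 ≤ C₀)
    (h : HF m K o p R' Q A₀ C₀ C₁ Λ B ε ρ u) (hd : Dens m o p R' 1 ε ρ u uu) (hε : 0 < ε) {k : ℕ}
    (hk : 4 * (10 + C₀) ≤ Λ ^ k) :
    (pb m K o p Q A₀ Λ ρ u uu).Dense ρ C₀ Λ ε ⟨o, mem_closedBall_self (by linarith)⟩ k := by
  have hΛ0 : 0 < Λ := by linarith
  have hΛ1 : 1 ≤ Λ := by linarith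
  have hx : ∀ x : closedBall o (ρ / 4), (x : M) ∈ ball o (R' * ρ) := fun x =>
    mem_ball.2 (lt_of_le_of_lt x.2 (by nlinarith))
  have ht0 : ∀ k, 0 < rr ρ Λ k ^ 2 := fun k => pow_pos (rr_pos hρ hΛ0 k) 2
  have ht1 : ∀ k, rr ρ Λ k ^ 2 ≤ ρ ^ 2 := fun k =>
    pow_le_pow_left₀ (rr_pos hρ hΛ0 k).le (rr_le hρ hΛ1 k) 2
  have hsq : ∀ k, √(rr ρ Λ k ^ 2) = rr ρ Λ k := fun k => Real.sqrt_sq (rr_pos hρ hΛ0 k).le
  intro y hy j hj v hv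
  have hr := rr_pos hρ hΛ0 j
  have hpd : PD (toForm (Gm m p u (rr ρ Λ j ^ 2) (y : M))) := by
    have hb := h.bG y (hx y) _ (ht0 j) (ht1 j)
    exact ⟨fun c d => by rw [hb.toForm_apply, hb.toForm_apply]; exact hb.symm c d, fun c hc => by
      rw [hb.toForm_apply]; exact h.pos y (hx y) _ (ht0 j) (ht1 j) c hc⟩
  have hnn : ∀ w : E n, 0 ≤ ⟪iv m p u (rr ρ Λ j ^ 2) y w, w⟫_ℝ := fun w => by
    have := hpd.pd_dual.psd.nonneg w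
    rwa [dual_apply] at this
  rw [nrm_eq] at hv
  have hv2 : ⟪iv m p u (rr ρ Λ j ^ 2) y v, v⟫_ℝ ≤ 1 ^ 2 * rr ρ Λ j ^ 2 := by
    rw [Real.sqrt_le_left hr.le] at hv
    linarith
  obtain ⟨z, hz1, hz2⟩ := hd y (hx y) _ (ht0 j) (ht1 j) v (iv m p u (rr ρ Λ j ^ 2) y v)
    (fun c' => iv_spec h (hx y) (ht0 j) (ht1 j) _ c') hv2
  rw [hsq] at hz1
  have hyo : dist (y : M) o < 10 * rr ρ Λ k := mem_ball.1 hy
  have hjk : rr ρ Λ j ≤ rr ρ Λ k := rr_anti hρ hΛ1 hj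
  have hrk : rr ρ Λ k * (4 * (10 + C₀)) ≤ ρ := by
    have h1 : rr ρ Λ k * Λ ^ k = ρ := by
      unfold rr
      exact div_mul_cancel₀ _ (by positivity)
    calc rr ρ Λ k * (4 * (10 + C₀)) ≤ rr ρ Λ k * Λ ^ k :=
          mul_le_mul_of_nonneg_left hk (rr_pos hρ hΛ0 k).le
      _ = ρ := h1
  have hz : z ∈ closedBall o (ρ / 4) := by
    rw [mem_closedBall]
    have h1 := dist_triangle z (y : M) o
    rw [dist_comm z (y : M)] at h1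
    have h2 := rr_pos hρ hΛ0 k
    have h3 : 2 * rr ρ Λ j ≤ C₀ * rr ρ Λ k := by nlinarith
    nlinarith
  refine ⟨⟨z, hz⟩, ?_, ?_⟩
  · have h4 : dist y ⟨z, hz⟩ = dist (y : M) z := rfl
    rw [h4]
    nlinarith
  · rw [nrm_eq]
    have := hz2 (iv m p u (rr ρ Λ j ^ 2) y (uu z - uu y - v))
      (fun c' => iv_spec h (hx y) (ht0 j) (ht1 j) _ c')
    change √(⟪iv m p u (rr ρ Λ j ^ 2) y (uu z - uu y - v), uu z - uu y - v⟫_ℝ) ≤ _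
    rw [Real.sqrt_le_left (by positivity), mul_pow]
    exact this

end main

theorem ex_max (a b c d e f : ℝ) : ∃ Q, a ≤ Q ∧ b ≤ Q ∧ c ≤ Q ∧ d ≤ Q ∧ e ≤ Q ∧ f ≤ Q :=
  ⟨max a (max b (max c (max d (max e f)))), le_max_left _ _, le_max_of_le_right (le_max_left _ _),
    le_max_of_le_right (le_max_of_le_right (le_max_left _ _)),
    le_max_of_le_right (le_max_of_le_right (le_max_of_le_right (le_max_left _ _))),
    le_max_of_le_right (le_max_of_le_right (le_max_of_le_right (le_max_of_le_right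
      (le_max_left _ _)))),
    le_max_of_le_right (le_max_of_le_right (le_max_of_le_right (le_max_of_le_right
      (le_max_right _ _))))⟩

theorem ex_min {a b c d e f : ℝ} (ha : 0 < a) (hb : 0 < b) (hc : 0 < c) (hd : 0 < d) (he : 0 < e)
    (hf : 0 < f) : ∃ x, 0 < x ∧ x ≤ a ∧ x ≤ b ∧ x ≤ c ∧ x ≤ d ∧ x ≤ e ∧ x ≤ f :=
  ⟨min a (min b (min c (min d (min e f)))), lt_min ha (lt_min hb (lt_min hc (lt_min hd
    (lt_min he hf)))), min_le_left _ _, min_le_of_right_le (min_le_left _ _),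
    min_le_of_right_le (min_le_of_right_le (min_le_left _ _)),
    min_le_of_right_le (min_le_of_right_le (min_le_of_right_le (min_le_left _ _))),
    min_le_of_right_le (min_le_of_right_le (min_le_of_right_le (min_le_of_right_le
      (min_le_left _ _)))),
    min_le_of_right_le (min_le_of_right_le (min_le_of_right_le (min_le_of_right_le
      (min_le_right _ _))))⟩

theorem ex_lam {c : ℝ} (hc : 0 < c) : ∃ Λ : ℝ, 16 ≤ Λ ∧ 1 ≤ 2 * √√Λ ∧ (2 * √√Λ) ^ 2 ≤ c * Λ := by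
  set Λ : ℝ := max 16 ((4 / c) ^ 2) with hΛdef
  have hΛ : 16 ≤ Λ := le_max_left _ _
  have hΛc : 4 ≤ c * √Λ := by
    have h1 : 4 / c ≤ √Λ := Real.le_sqrt_of_sq_le (le_max_right _ _)
    rw [div_le_iff₀ hc] at h1
    linarith
  have hsΛ : 0 ≤ √Λ := Real.sqrt_nonneg _
  have hssΛ : √√Λ ^ 2 = √Λ := Real.sq_sqrt hsΛ
  have hΛs : √Λ ^ 2 = Λ := Real.sq_sqrt (by linarith)
  have hs1 : 1 ≤ √Λ := Real.one_le_sqrt.2 (by linarith)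
  have hss1 : 1 ≤ √√Λ := Real.one_le_sqrt.2 hs1
  refine ⟨Λ, hΛ, by linarith, ?_⟩
  rw [mul_pow, hssΛ]
  have : c * Λ = (c * √Λ) * √Λ := by rw [mul_assoc, ← sq, hΛs]
  rw [this]
  nlinarith

theorem ex_eps {ε₀ a b c : ℝ} (hε₀ : 0 < ε₀) (ha : 0 < a) (hb : 0 < b) (hc : 0 < c) :
    ∃ ε : ℝ, 0 < ε ∧ ε ≤ ε₀ ∧ 2 * (a * ε) ≤ 1 ∧ 2 * (b * ε) ≤ 1 ∧ 2 * (c * ε) ≤ 1 := by
  obtain ⟨x, hx, h1, h2, h3, h4, -, -⟩ := ex_min hε₀ (show 0 < 1 / (2 * a) by positivity)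
    (show 0 < 1 / (2 * b) by positivity) (show 0 < 1 / (2 * c) by positivity) one_pos one_pos
  rw [le_div_iff₀ (by positivity)] at h2 h3 h4
  exact ⟨x, hx, h1, by linarith, by linarith, by linarith⟩

/-- the last step: all blocks applied -/
theorem last {X : Type u} [MetricSpace X] [MeasurableSpace X] {m : Measure X} {n : ℕ} {K : ℝ} {o : X}
    {p : ℝ → X → X → ℝ} {R Q A₀ C₀ C₁ Λ B Bh ε ε₀ δ' ρ : ℝ} {u : Fin n → X →ₘ[m] ℝ} {uu : X → E n}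
    (hρ : 0 < ρ) (hΛ : 16 ≤ Λ) (hR : 4 ≤ R) (hC₀ : 2 ≤ C₀) (hC₁ : 1 ≤ C₁)
    (hB : 1 ≤ B) (hBh : 1 ≤ Bh) (hε : 0 < ε) (hε1 : ε ≤ ε₀) (hA₀ : 0 < A₀)
    (hA : 2 * δ' + 4 * A₀ ≤ ε₀)
    (h : HF m K o p (R / 4) Q A₀ C₀ C₁ Λ B ε ρ u)
    (s1 : 2 * (B * ε) ≤ 1) (s2 : 2 * (C₁ * C₀ * ε) ≤ 1) (s3 : 2 * (B * √√Λ ^ 2 * ε) ≤ 1)
    (hn : NearIso m o p (R / 4) C₀ ε ρ u uu) (hd : Dens m o p (R / 4) 1 ε ρ u uu)
    (h5 : H5 m K o p (R / 4) Q A₀ C₀ Bh ρ u uu)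
    (h6 : H6 m n K o p (R / 4) Q A₀ Λ (2 * δ' + 4 * A₀) ρ) :
    ∃ ε δ : ℝ, 0 < ε ∧ ε ≤ ε₀ ∧ 0 < δ ∧ δ ≤ ε₀ ∧ ∃ r₀ : ℝ, 0 < r₀ ∧
      ∃ S : PB n (closedBall o (r₀ / 4)),
        S.Hyp r₀ C₀ (2 * C₁) Λ (2 * √√Λ) (max (2 * B) Bh) ε δ ∧
          ∃ (k : ℕ) (q : closedBall o (r₀ / 4)), (q : X) = o ∧ S.Dense r₀ C₀ Λ ε q k := by
  obtain ⟨k, hk⟩ := pow_unbounded_of_one_lt (4 * (10 + C₀)) (by linarith : 1 < Λ)
  have hR' : 1 ≤ R / 4 := by linarith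
  refine ⟨ε, ε₀, hε, hε1, lt_of_lt_of_le hε hε1, le_rfl, ρ, hρ, pb _ K o p Q A₀ Λ ρ u uu, ?_, k,
    ⟨o, mem_closedBall_self (by linarith)⟩, rfl, ?_⟩
  · exact pb_hyp hρ hΛ hR' (by linarith) hC₁ hB hε hA₀ h s1 s2 s3 hn h5 h6 hA
      (le_max_left _ _) (le_max_right _ _) (by linarith)
  · exact pb_dense hρ hΛ hR' hC₀ h hd hε hk.le

/-- **Part A from the blocks.** -/
theorem partA_of (bF : Blk_F.{u}) (bM : Blk_Maps.{u}) (bD : Blk_Drop.{u}) (b6 : Blk_H6.{u})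
    (bT : Blk_T.{u}) (bN : Blk_Near.{u}) (b5 : Blk_H5.{u}) (bH : Blk_H234.{u}) : PartA.{u} := by
  intro X _ _ _ _ _ n K hyp o hreg C₀ hC₀
  have hC₀1 : 1 ≤ C₀ := by linarith
  obtain ⟨A, p, env⟩ := bF X _ n K o hyp
  obtain ⟨Q1, hQ1, bT⟩ := bT X _ n K o A p env
  obtain ⟨Q2, hQ2, bN1⟩ := bN X _ n K o A p env C₀ hC₀1
  obtain ⟨Q3, hQ3, bN2⟩ := bN X _ n K o A p env 1 le_rfl
  obtain ⟨Q4, hQ4, b5⟩ := b5 X _ n K o A p env C₀ hC₀1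
  obtain ⟨Q5, hQ5, bH⟩ := bH X _ n K o A p env C₀ hC₀1
  obtain ⟨Q, q1, q2, q3, q4, q5, -⟩ := ex_max Q1 Q2 Q3 Q4 Q5 1
  obtain ⟨R1, hR1, bT⟩ := bT Q q1
  obtain ⟨R2, hR2, bN1⟩ := bN1 Q q2
  obtain ⟨R3, hR3, bN2⟩ := bN2 Q q3
  obtain ⟨R4, hR4, b5⟩ := b5 Q q4
  obtain ⟨R5, hR5, bH⟩ := bH Q q5
  obtain ⟨R, r1, r2, r3, r4, r5, r6⟩ := ex_max R1 R2 R3 R4 R5 4
  have bT := bT R r1
  have bN1 := bN1 R r2
  have bN2 := bN2 R r3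
  obtain ⟨Bh, hBh, ε4, hε4, b5⟩ := b5 R r4
  obtain ⟨C₁, hC₁, bH⟩ := bH R r5
  have hQ1' : 1 ≤ Q := hQ1.trans q1
  have hR1' : 1 ≤ R := hR1.trans r1
  refine ⟨2 * C₁, by linarith, fun c hc => ?_⟩
  obtain ⟨Λ, hΛ, hτ, hτc⟩ := ex_lam hc
  obtain ⟨B, hB, bH⟩ := bH Λ hΛ
  refine ⟨Λ, 2 * √√Λ, max (2 * B) Bh, hτ, hτc, hBh.trans (le_max_right _ _), fun ε₀ hε₀ => ?_⟩
  have hsΛ : 0 < √√Λ := by linarith
  obtain ⟨ε, hε, hε1, s1, s2, s3⟩ := ex_eps (a := B) (b := C₁ * C₀) (c := B * √√Λ ^ 2) hε₀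
    (by linarith) (by nlinarith) (by nlinarith [pow_pos hsΛ 2])
  obtain ⟨ε2, hε2', bN1⟩ := bN1 ε hε
  obtain ⟨ε3, hε3', bN2⟩ := bN2 ε hε
  obtain ⟨ε5, hε5', bH⟩ := bH ε hε
  obtain ⟨ε', hε', e2, e3, e4, e5, -, -⟩ := ex_min hε2' hε3' hε4 hε5' one_pos one_pos
  obtain ⟨η1, hη1, bT⟩ := bT ε' hε'
  obtain ⟨A₀, hA₀, a1, a2, a3, -, -, -⟩ := ex_min hε4 hε5' (show 0 < ε₀ / 8 by positivity) one_pos
    one_pos one_pos
  obtain ⟨η4, hη4, b5⟩ := b5 A₀ hA₀ a1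
  obtain ⟨η5, hη5, bH⟩ := bH A₀ hA₀ a2
  obtain ⟨δ', hδ', d1, d2, d3, -, -, -⟩ := ex_min hη4 hη1 (show 0 < ε₀ / 4 by positivity) one_pos
    one_pos one_pos
  obtain ⟨ρ₁, hρ₁, bD⟩ := bD X _ n K o A p env hreg R Q δ' hR1' hQ1' hδ'
  obtain ⟨η, hη, g1, g2, g3, g4, g5, g6⟩ := ex_min hη1 hε2' hε3' hη4 hη5 hρ₁
  obtain ⟨ρ, hρη, u, uu, hcfg⟩ := bM X _ n K o A p env hreg R Q η η hR1' hQ1' hη hη
  have hρ := hcfg.ρ_pos
  have hdrop := bD ρ hρ (hρη.trans g6)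
  have hT := bT η δ' ρ hη g1 d2 (hρη.trans g1) u uu hcfg hdrop
  have hN1 := (bN1 ε' η ρ hε' e2 hη g2 (hρη.trans g2) u uu hcfg hT).1
  have hN2 := (bN2 ε' η ρ hε' e3 hη g3 (hρη.trans g3) u uu hcfg hT).2
  have h5 := b5 ε' η δ' ρ hε' e4 hη g4 d1 (hρη.trans g4) u uu hcfg hdrop hT
  have hF := bH ε' η ρ hε' e5 hη g5 (hρη.trans g5) u uu hcfg hT
  have hR4' : 1 ≤ R / 4 := by linarith
  have h6 := b6 X _ n K o A p env (R / 4) Q A₀ Λ δ' ρ hR4' hQ1' hA₀ hΛ hρ hcfg.Qρ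
    (fun x hx a ha ha' => hdrop x (ball_subset_ball (by nlinarith) hx) a ha ha')
  exact last hρ hΛ r6 hC₀ hC₁ hB hBh hε hε1 hA₀ (by linarith) hF s1 s2 s3 hN1 hN2 h5 h6

end Vale.Agent.P242.H71
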