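import Mathlib.Analysis.InnerProductSpace.PiL2
import Mathlib.Analysis.Seminorm
import Mathlib.Topology.MetricSpace.Basic

/-! P242, Part B (geometric scheme): frozen statement (helper71). Blueprint: note 2715. -/

open Metric

universe u

namespace Vale.Agent.P242.H71

/-- `ℝⁿ` with the Euclidean norm -/
abbrev E (n : ℕ) : Type := EuclideanSpace ℝ (Fin n)

/-- `r_k = r₀ Λ^{-k}` -/
noncomputable def rr (r₀ Λ : ℝ) (k : ℕ) : ℝ := r₀ / Λ ^ k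

/-- Data of the geometric scheme: coordinates `u`, metric forms `g_k(x)`, seminorms `𝔫_k(x; ·)`,
drop function `D_k(x)`. -/
structure PB (n : ℕ) (X : Type u) where
  u : X → E n
  g : ℕ → X → E n →ₗ[ℝ] E n →ₗ[ℝ] ℝ
  N : ℕ → X → Seminorm ℝ (E n)
  D : ℕ → X → ℝ

namespace PB

variable {n : ℕ} {X : Type u} [MetricSpace X] (S : PB n X)

/-- `|v|_{k,x}` -/
noncomputable def nrm (k : ℕ) (x : X) (v : E n) : ℝ := √(S.g k x v v)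

/-- Hypotheses (h1) - (h7) of the scheme. `C₀` is a dimensional constant (range of the scales),
`C₁` may depend on `C₀`, then `Λ`, `τ`, then `B`, then `ε`, `δ`. -/
structure Hyp (r₀ C₀ C₁ Λ τ B ε δ : ℝ) : Prop where
  r₀_pos : 0 < r₀
  diam : ∀ x y : X, dist x y ≤ r₀
  symm : ∀ k x v w, S.g k x v w = S.g k x w v
  pos : ∀ k x v, v ≠ 0 → 0 < S.g k x v v
  h1 : ∀ k x y, dist x y ≤ C₀ * rr r₀ Λ k →
    |S.nrm k x (S.u x - S.u y) - dist x y| ≤ ε * rr r₀ Λ k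
  h1' : ∀ k x y, dist x y ≤ C₀ * rr r₀ Λ k → S.nrm k x (S.u x - S.u y) ≤ 2 * dist x y
  h2 : ∀ k x v w, |S.g (k + 1) x v w - S.g k x v w| ≤ B * (S.N k x v * S.N k x w)
  h3 : ∀ k x y, dist x y ≤ C₀ * rr r₀ Λ k → ∀ v w,
    |S.g k x v w - S.g k y v w| ≤ C₁ * (dist x y / rr r₀ Λ k) * (S.N k x v * S.N k x w)
  h4a : ∀ k x v, S.N k x v ^ 2 ≤ ε * S.g k x v v
  h4b : ∀ k x y, dist x y ≤ C₀ * rr r₀ Λ k → ∀ v, S.N k y v ≤ C₁ * S.N k x v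
  h4c : ∀ k x v, S.N k x v ≤ τ * S.N (k + 1) x v
  h5 : ∀ k x y, dist x y ≤ C₀ * rr r₀ Λ k →
    S.N k x (S.u x - S.u y) ^ 2 ≤ B * rr r₀ Λ k ^ 2 * (S.D k x + S.D k y)
  h6a : ∀ k, ∃ c : ℝ, 0 < c ∧ ∀ x, c ≤ S.D k x
  h6b : ∀ k x, S.D k x ≤ τ ^ 2 * S.D (k + 1) x
  h6c : ∀ K x, ∑ k ∈ Finset.range K, S.D k x ≤ δ
  h7 : ∀ j k, j ≤ k → ∀ x v, S.g j x v v ≤ 2 * S.g k x v v

/-- density of the image of `u` at all scales `r_j`, `j ≥ k`, around the points of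
`ball x₀ (10 r_k)` -/
def Dense (r₀ C₀ Λ ε : ℝ) (x₀ : X) (k : ℕ) : Prop :=
  ∀ y ∈ ball x₀ (10 * rr r₀ Λ k), ∀ j, k ≤ j → ∀ v : E n, S.nrm j y v ≤ rr r₀ Λ j →
    ∃ y' : X, dist y y' ≤ C₀ * rr r₀ Λ j ∧ S.nrm j y (S.u y' - S.u y - v) ≤ ε * rr r₀ Λ j

end PB

/-- **Part B.** -/
def PartB : Prop :=
  ∀ n : ℕ, 1 ≤ n → ∃ C₀ : ℝ, 2 ≤ C₀ ∧ ∀ C₁ : ℝ, 1 ≤ C₁ → ∃ c : ℝ, 0 < c ∧
    ∀ Λ τ : ℝ, 1 ≤ τ → τ ^ 2 ≤ c * Λ → ∀ B : ℝ, 1 ≤ B → ∃ ε₀ : ℝ, 0 < ε₀ ∧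
      ∀ ε δ : ℝ, 0 < ε → ε ≤ ε₀ → 0 < δ → δ ≤ ε₀ →
        ∀ (X : Type u) [MetricSpace X] (S : PB n X) (r₀ : ℝ), S.Hyp r₀ C₀ C₁ Λ τ B ε δ →
          ∃ F : X → E n, (∀ x y, dist x y / 2 ≤ dist (F x) (F y) ∧
              dist (F x) (F y) ≤ 2 * dist x y) ∧
            (CompleteSpace X → ∀ (x₀ : X) (k : ℕ), S.Dense r₀ C₀ Λ ε x₀ k →
              ball (F x₀) (rr r₀ Λ k / 4) ⊆ F '' ball x₀ (10 * rr r₀ Λ k))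

end Vale.Agent.P242.H71
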