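import Vale.Agent.P242.H358.CIAsm
import Vale.Agent.P242.H196.RR
import Vale.Agent.P242.H196.RRs
import Vale.Agent.P242.H655.SBE4F
import Vale.Agent.P242.H771.Gout
import Vale.Agent.P242.H448.RelH

/-! P242: the final theorem, everything plugged in. -/

set_option linter.all false

universe u

namespace Vale.Agent.P242.H71

/-- **Bi-Lipschitz charts at the regular points of noncollapsed `RCD(K,n)` spaces.** -/
theorem final : H448.Final.{u} :=
  H358.ci_final H196.blk_R12 (fun M _ _ _ _ _ m n K o A p e => H655.sb_E4 e)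
    (fun M _ _ _ _ _ m n K o A p e => H771.sb_gout e)
    (fun M _ _ _ _ _ m n K o A p e => H196.sb_RR e)
    (fun M _ _ _ _ _ m n K o A p e => H448.sb_Rel e)

/-- **Part A.** -/
theorem partA : PartA.{u} :=
  partA_of H751.blk_F' H446.blk_Maps (H744.blk_Drop_of (H607.blk_Low_of H446.blk_Maps))
    H744.blk_H6 (H155.blk_T H196.blk_R12) H597.blk_near
    (H358.ci_H5 (fun M _ _ _ _ _ m n K o A p e => H655.sb_E4 e)
      (fun M _ _ _ _ _ m n K o A p e => H771.sb_gout e)
      (fun M _ _ _ _ _ m n K o A p e => H196.sb_RR e)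
      (fun M _ _ _ _ _ m n K o A p e => H448.sb_Rel e)) H703.blk_H234

end Vale.Agent.P242.H71
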